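import Vale.Agent.Lib.P254.Orl.Main

namespace Vale.Agent.Results.P254.OrliczBalls

open Vale.Agent.Lib.P254 Vale.Agent.Lib.P254.Orl

/-- The strong isotropic constant conjecture (with strict inequality and the dimension-free bound
`L_K^2 ≤ (n+1)/(8(n+2)) < 1/8`) for all generalized Orlicz balls `{x : ∑ v_i(x_i) ≤ 1}`, and, for an
arbitrary unconditional (solid) convex body `K`, Berwald's moment inequality and the reduction of the
conjecture to the volume inequality `∏ 4 E|x_i| ≤ |K|`. -/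
theorem result (n : ℕ) (hn : 2 ≤ n) (S : Set (Fin n → ℝ)) (hS : IsSimplex S) :
    (∀ v : Fin n → ℝ → ℝ, (∀ i, IsYoung (v i)) →
      IsConvexBody (OB v) ∧
      ∏ i, (4 * ((vol (OB v))⁻¹ * ∫ x in OB v, |x i|)) ≤ vol (OB v) ∧
      isoConst (OB v) ^ 2 ≤ ((n : ℝ) + 1) / (8 * ((n : ℝ) + 2)) ∧
      isoConst (OB v) < isoConst S) ∧
    (∀ K : Set (Fin n → ℝ), IsConvexBody K → Solid K →
      (∀ i, (vol K)⁻¹ * ∫ x in K, x i ^ 2
        ≤ 2 * ((n : ℝ) + 1) / ((n : ℝ) + 2) * ((vol K)⁻¹ * ∫ x in K, |x i|) ^ 2) ∧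
      (∏ i, (4 * ((vol K)⁻¹ * ∫ x in K, |x i|)) ≤ vol K →
        isoConst K ^ 2 ≤ ((n : ℝ) + 1) / (8 * ((n : ℝ) + 2)) ∧ isoConst K < isoConst S)) := by
  obtain ⟨m, rfl⟩ : ∃ m, n = m + 1 := ⟨n - 1, by omega⟩
  have hm : 0 < m := by omega
  have hSc : IsCompact S := (isConvexBody_of_isSimplex hS).1
  have gen : ∀ K : Set (Fin (m + 1) → ℝ), IsConvexBody K → Solid K →
      (∀ i, (vol K)⁻¹ * ∫ x in K, x i ^ 2
        ≤ 2 * (((m + 1 : ℕ) : ℝ) + 1) / (((m + 1 : ℕ) : ℝ) + 2)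
          * ((vol K)⁻¹ * ∫ x in K, |x i|) ^ 2) ∧
      (∏ i, (4 * ((vol K)⁻¹ * ∫ x in K, |x i|)) ≤ vol K →
        isoConst K ^ 2 ≤ (((m + 1 : ℕ) : ℝ) + 1) / (8 * (((m + 1 : ℕ) : ℝ) + 2)) ∧
          isoConst K < isoConst S) := by
    intro K hK sK
    have hV : 0 < vol K := vol_pos hK
    refine ⟨fun i => ?_, fun hB => ?_⟩
    · have h := lemmaA m hm hK.2.1 sK hK.1 i
      have e1 : (vol K)⁻¹ * ∫ x in K, x i ^ 2
          = ((∫ x in K, x i ^ 2) * vol K) * ((vol K)⁻¹) ^ 2 := by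
        field_simp
      have e2 : 2 * (((m + 1 : ℕ) : ℝ) + 1) / (((m + 1 : ℕ) : ℝ) + 2)
            * ((vol K)⁻¹ * ∫ x in K, |x i|) ^ 2
          = ((2 * ((m : ℝ) + 2) / ((m : ℝ) + 3)) * (∫ x in K, |x i|) ^ 2) * ((vol K)⁻¹) ^ 2 := by
        push_cast
        have h3 : (m : ℝ) + 3 ≠ 0 := by positivity
        have h3' : (m : ℝ) + 1 + 2 ≠ 0 := by positivity
        field_simp
        ring
      rw [e1, e2]
      exact mul_le_mul_of_nonneg_right h (by positivity)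
    · have hr := ratio_le_of_box m hm hK.2.1 sK hK.1 hV hB
      have hp := isoConst_pow hK.1
      rw [Fintype.card_fin] at hp
      constructor
      · have hq : (0 : ℝ) ≤ (((m + 1 : ℕ) : ℝ) + 1) / (8 * (((m + 1 : ℕ) : ℝ) + 2)) := by positivity
        have h2 : (isoConst K ^ 2) ^ (m + 1)
            ≤ ((((m + 1 : ℕ) : ℝ) + 1) / (8 * (((m + 1 : ℕ) : ℝ) + 2))) ^ (m + 1) := by
          rw [← pow_mul, hp]; exact hr
        exact (pow_le_pow_iff_left₀ (by positivity) hq (Nat.succ_ne_zero m)).mp h2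
      · rw [← not_le, isoConst_le_iff hSc hK.1, not_le, ratio_simplex hS]
        exact lt_of_le_of_lt hr (bound_lt_simplexRatio (m + 1) hn)
  refine ⟨fun v hv => ?_, gen⟩
  have hK := isConvexBody_OB hv
  have hB := lemmaB m hv
  exact ⟨hK, hB, (gen (OB v) hK (solid_OB hv)).2 hB⟩

end Vale.Agent.Results.P254.OrliczBalls
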