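import Vale.Agent.Lib.P254.Final

namespace Vale.Agent.Results.P254.PyramidFormula

open Vale.Agent.Lib.P254

/-- Exact behaviour of the isotropic constant under forming pyramids, and the resulting
equivalence between the conjectured inequality for a body and for the pyramid over it. -/
theorem result {ι : Type*} [Fintype ι] [DecidableEq ι] [Nonempty ι]
    (B : Set (ι → ℝ)) (hB : IsConvexBody B) :
    IsConvexBody (pyramid B) ∧
    isoConst (pyramid B) ^ (2 * (Fintype.card ι + 1))
      = (((Fintype.card ι : ℝ) + 1) ^ (Fintype.card ι + 3)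
          / (((Fintype.card ι : ℝ) + 3) ^ (Fintype.card ι + 1) * ((Fintype.card ι : ℝ) + 2) ^ 2))
        * isoConst B ^ (2 * Fintype.card ι) ∧
    ∀ S : Set (ι → ℝ), IsSimplex S →
      IsSimplex (pyramid S) ∧
      (isoConst B ≤ isoConst S ↔ isoConst (pyramid B) ≤ isoConst (pyramid S)) ∧
      (isoConst B = isoConst S ↔ isoConst (pyramid B) = isoConst (pyramid S)) := by
  have hPB := isConvexBody_pyramid hB
  have hc := pyrConst_pos (Fintype.card ι)
  refine ⟨hPB, ?_, ?_⟩
  · have h1 := isoConst_pow hPB.1
    have h2 := isoConst_pow hB.1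
    have hcard : Fintype.card (ι ⊕ Unit) = Fintype.card ι + 1 := by simp
    rw [hcard] at h1
    rw [h1, h2, ratio_pyramid hB]
    rfl
  · intro S hS
    have hSb := isConvexBody_of_isSimplex hS
    have hPS := isConvexBody_pyramid hSb
    have hle : ∀ {K K' : Set (ι → ℝ)}, IsConvexBody K → IsConvexBody K' →
        (isoConst K ≤ isoConst K' ↔ isoConst (pyramid K) ≤ isoConst (pyramid K')) := by
      intro K K' hK hK'
      rw [isoConst_le_iff hK.1 hK'.1,
        isoConst_le_iff (isConvexBody_pyramid hK).1 (isConvexBody_pyramid hK').1,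
        ratio_pyramid hK, ratio_pyramid hK']
      exact (mul_le_mul_iff_right₀ hc).symm
    refine ⟨isSimplex_pyramid hS, hle hB hSb, ?_⟩
    rw [le_antisymm_iff, le_antisymm_iff, hle hB hSb, hle hSb hB]

end Vale.Agent.Results.P254.PyramidFormula
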