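import Vale.Agent.Results.P254.FewVertices
import Vale.Agent.Results.P254.OrliczBalls
import Vale.Agent.Results.P254.PyramidFormula

namespace Vale.Agent.Results.P254.AllResults

open Vale.Agent.Lib.P254 Vale.Agent.Lib.P254.Orl

/-- Three families of convex bodies for which the strong isotropic constant conjecture holds, in every
dimension `n ≥ 2`: polytopes with at most `n + 2` vertices (exact formula), generalized Orlicz balls
(and unconditional bodies with `∏ 4 E|x_i| ≤ |K|`), and closure of the conjecture under pyramids. -/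
theorem result (n : ℕ) (hn : 2 ≤ n) (S : Set (Fin n → ℝ)) (hS : IsSimplex S) :
    (∀ z : Fin (n + 2) → (Fin n → ℝ), (interior (convexHull ℝ (Set.range z))).Nonempty →
      (∃ μ ν : Fin (n + 2) → ℝ, (∀ k, 0 ≤ μ k) ∧ (∀ k, 0 ≤ ν k) ∧ (∀ k, μ k * ν k = 0) ∧
          ∑ k, μ k = 1 ∧ ∑ k, ν k = 1 ∧ ∑ k, μ k • z k = ∑ k, ν k • z k) ∧
      (∀ μ ν : Fin (n + 2) → ℝ, (∀ k, 0 ≤ μ k) → (∀ k, 0 ≤ ν k) → (∀ k, μ k * ν k = 0) →
          ∑ k, μ k = 1 → ∑ k, ν k = 1 → ∑ k, μ k • z k = ∑ k, ν k • z k →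
          isoConst (convexHull ℝ (Set.range z)) ^ (2 * n)
            = isoConst S ^ (2 * n) * (1 - (1 - ∑ k, μ k ^ 2) * (1 - ∑ k, ν k ^ 2))) ∧
      isoConst (convexHull ℝ (Set.range z)) ≤ isoConst S ∧
      (ConvexIndependent ℝ z → isoConst (convexHull ℝ (Set.range z)) < isoConst S)) ∧
    (∀ v : Fin n → ℝ → ℝ, (∀ i, IsYoung (v i)) →
      IsConvexBody (OB v) ∧
      ∏ i, (4 * ((vol (OB v))⁻¹ * ∫ x in OB v, |x i|)) ≤ vol (OB v) ∧
      isoConst (OB v) ^ 2 ≤ ((n : ℝ) + 1) / (8 * ((n : ℝ) + 2)) ∧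
      isoConst (OB v) < isoConst S) ∧
    (∀ K : Set (Fin n → ℝ), IsConvexBody K → Solid K →
      (∀ i, (vol K)⁻¹ * ∫ x in K, x i ^ 2
        ≤ 2 * ((n : ℝ) + 1) / ((n : ℝ) + 2) * ((vol K)⁻¹ * ∫ x in K, |x i|) ^ 2) ∧
      (∏ i, (4 * ((vol K)⁻¹ * ∫ x in K, |x i|)) ≤ vol K →
        isoConst K ^ 2 ≤ ((n : ℝ) + 1) / (8 * ((n : ℝ) + 2)) ∧ isoConst K < isoConst S)) ∧
    (∀ B : Set (Fin n → ℝ), IsConvexBody B →
      IsConvexBody (pyramid B) ∧ IsSimplex (pyramid S) ∧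
      isoConst (pyramid B) ^ (2 * (n + 1))
        = (((n : ℝ) + 1) ^ (n + 3) / (((n : ℝ) + 3) ^ (n + 1) * ((n : ℝ) + 2) ^ 2))
          * isoConst B ^ (2 * n) ∧
      (isoConst B ≤ isoConst S ↔ isoConst (pyramid B) ≤ isoConst (pyramid S)) ∧
      (isoConst B = isoConst S ↔ isoConst (pyramid B) = isoConst (pyramid S))) := by
  have : Nonempty (Fin n) := ⟨⟨0, by omega⟩⟩
  refine ⟨fun z hz => FewVertices.result n (by omega) z hz S hS,
    (OrliczBalls.result n hn S hS).1, (OrliczBalls.result n hn S hS).2, fun B hB => ?_⟩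
  obtain ⟨h1, h2, h3⟩ := PyramidFormula.result B hB
  obtain ⟨h4, h5, h6⟩ := h3 S hS
  rw [Fintype.card_fin] at h2
  exact ⟨h1, h4, h2, h5, h6⟩

end Vale.Agent.Results.P254.AllResults
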