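import Vale.Agent.Lib.P254.Few.Main

namespace Vale.Agent.Results.P254.FewVertices

open Vale.Agent.Lib.P254

/-- Exact value of the isotropic constant of the convex hull of `n + 2` points of `ℝ^n` in terms
of the Radon weights of the points, and the strong isotropic constant conjecture (with strict
inequality) for all polytopes with at most `n + 2` vertices. -/
theorem result (n : ℕ) (hn : 0 < n) (z : Fin (n + 2) → (Fin n → ℝ))
    (hz : (interior (convexHull ℝ (Set.range z))).Nonempty)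
    (S : Set (Fin n → ℝ)) (hS : IsSimplex S) :
    (∃ μ ν : Fin (n + 2) → ℝ, (∀ k, 0 ≤ μ k) ∧ (∀ k, 0 ≤ ν k) ∧ (∀ k, μ k * ν k = 0) ∧
        ∑ k, μ k = 1 ∧ ∑ k, ν k = 1 ∧ ∑ k, μ k • z k = ∑ k, ν k • z k) ∧
    (∀ μ ν : Fin (n + 2) → ℝ, (∀ k, 0 ≤ μ k) → (∀ k, 0 ≤ ν k) → (∀ k, μ k * ν k = 0) →
        ∑ k, μ k = 1 → ∑ k, ν k = 1 → ∑ k, μ k • z k = ∑ k, ν k • z k →
        isoConst (convexHull ℝ (Set.range z)) ^ (2 * n)
          = isoConst S ^ (2 * n) * (1 - (1 - ∑ k, μ k ^ 2) * (1 - ∑ k, ν k ^ 2))) ∧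
    isoConst (convexHull ℝ (Set.range z)) ≤ isoConst S ∧
    (ConvexIndependent ℝ z → isoConst (convexHull ℝ (Set.range z)) < isoConst S) := by
  have : Nonempty (Fin n) := ⟨⟨0, hn⟩⟩
  have hKc : IsCompact (convexHull ℝ (Set.range z)) :=
    (Set.finite_range z).isCompact_convexHull (𝕜 := ℝ)
  have hSc : IsCompact S := (isConvexBody_of_isSimplex hS).1
  have hpos := simplexRatio_pos n
  have hform : ∀ μ ν : Fin (n + 2) → ℝ, (∀ k, 0 ≤ μ k) → (∀ k, 0 ≤ ν k) →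
      (∀ k, μ k * ν k = 0) → ∑ k, μ k = 1 → ∑ k, ν k = 1 →
      ∑ k, μ k • z k = ∑ k, ν k • z k →
      ratio (convexHull ℝ (Set.range z))
        = ratio S * (1 - (1 - ∑ k, μ k ^ 2) * (1 - ∑ k, ν k ^ 2)) := by
    intro μ ν h1 h2 h3 h4 h5 h6
    rw [ratio_few z hz μ ν h1 h2 h3 h4 h5 h6, ratio_simplex hS]
  obtain ⟨μ, ν, h1, h2, h3, h4, h5, h6⟩ := exists_radon_weights z
  have hμ := sum_sq_le_one μ h1 h4
  have hν := sum_sq_le_one ν h2 h5
  refine ⟨⟨μ, ν, h1, h2, h3, h4, h5, h6⟩, ?_, ?_, ?_⟩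
  · intro μ' ν' g1 g2 g3 g4 g5 g6
    have e1 := isoConst_pow hKc
    have e2 := isoConst_pow hSc
    rw [Fintype.card_fin] at e1 e2
    rw [e1, e2]
    exact hform μ' ν' g1 g2 g3 g4 g5 g6
  · rw [isoConst_le_iff hKc hSc, hform μ ν h1 h2 h3 h4 h5 h6, ratio_simplex hS]
    have : 0 ≤ (1 - ∑ k, μ k ^ 2) * (1 - ∑ k, ν k ^ 2) :=
      mul_nonneg (sub_nonneg.mpr hμ) (sub_nonneg.mpr hν)
    nlinarith
  · intro hci
    have hμ' := sum_sq_lt_one z hci μ ν h1 h2 h3 h4 h5 h6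
    have hν' := sum_sq_lt_one z hci ν μ h2 h1 (fun k => by rw [mul_comm]; exact h3 k) h5 h4 h6.symm
    rw [← not_le, isoConst_le_iff hSc hKc, not_le, hform μ ν h1 h2 h3 h4 h5 h6, ratio_simplex hS]
    have : 0 < (1 - ∑ k, μ k ^ 2) * (1 - ∑ k, ν k ^ 2) :=
      mul_pos (sub_pos.mpr hμ') (sub_pos.mpr hν')
    nlinarith

end Vale.Agent.Results.P254.FewVertices
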