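import Vale.Agent.Lib.P254.OSum.IterT
import Vale.Agent.Lib.P254.OSum.Profile
import Vale.Agent.Lib.P254.OSum.Mixed2

namespace Vale.Agent.Results.P254.OrliczSums

open Vale.Agent.Lib.P254 Vale.Agent.Lib.P254.Orl Vale.Agent.Lib.P254.OSum

/-- (A) The class of solid (unconditional) convex bodies that satisfy the volume inequality
`∏ 4 E|x_i| ≤ |K|` is closed under Orlicz sums
`{(x, y) ∈ ℝ^p × ℝ^q : u₁(‖x‖_{K₁}) + u₂(‖y‖_{K₂}) ≤ 1}` (`u₁, u₂` arbitrary Young functions), under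
truncated Orlicz sums (with the extra constraints `‖x‖_{K₁} ≤ A₁`, `‖y‖_{K₂} ≤ A₂`), under sums
`{‖x‖_{K₁} ≤ A, ‖y‖_{K₂} ≤ h(‖x‖_{K₁})}` with an arbitrary concave profile `h`, and under Cartesian
products.
(B) Every solid convex body in `ℝ^n`, `n ≥ 2`, with that volume inequality, and in particular (C) every
body obtained from generalized Orlicz balls by iterating these operations, satisfies the strong
isotropic constant conjecture strictly, with `L_K^2 ≤ (n+1)/(8(n+2)) < 1/8`.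
(D) Example: the mixed-norm balls `{(x, y) ∈ ℝ^p × ℝ^q : ‖x‖_a^c + ‖y‖_b^c ≤ 1}`, `a, b, c ≥ 1`. -/
theorem result :
    (∀ (p q : ℕ) (K₁ : Set (Fin p → ℝ)) (K₂ : Set (Fin q → ℝ)),
      0 < p → 0 < q → IsConvexBody K₁ → Solid K₁ → BoxIneq K₁ →
      IsConvexBody K₂ → Solid K₂ → BoxIneq K₂ →
      (∀ u₁ u₂ : ℝ → ℝ, IsYoung u₁ → IsYoung u₂ →
        (IsConvexBody (OrlSum u₁ u₂ K₁ K₂) ∧ Solid (OrlSum u₁ u₂ K₁ K₂) ∧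
          BoxIneq (OrlSum u₁ u₂ K₁ K₂)) ∧
        (∀ A₁ A₂ : ℝ, 0 < A₁ → 0 < A₂ →
          IsConvexBody (TSum u₁ u₂ A₁ A₂ K₁ K₂) ∧ Solid (TSum u₁ u₂ A₁ A₂ K₁ K₂) ∧
            BoxIneq (TSum u₁ u₂ A₁ A₂ K₁ K₂))) ∧
      (∀ (h : ℝ → ℝ) (A : ℝ), IsProfile h → 0 < A →
        IsConvexBody (HSum h A K₁ K₂) ∧ Solid (HSum h A K₁ K₂) ∧ BoxIneq (HSum h A K₁ K₂)) ∧
      (IsConvexBody (PBox K₁ K₂) ∧ Solid (PBox K₁ K₂) ∧ BoxIneq (PBox K₁ K₂))) ∧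
    (∀ (n : ℕ) (K S : Set (Fin n → ℝ)), 2 ≤ n → IsSimplex S →
      IsConvexBody K → Solid K → BoxIneq K →
      isoConst K ^ 2 ≤ ((n : ℝ) + 1) / (8 * ((n : ℝ) + 2)) ∧ isoConst K < isoConst S) ∧
    (∀ (n : ℕ) (K S : Set (Fin n → ℝ)), 2 ≤ n → IsSimplex S → IterT n K →
      IsConvexBody K ∧ Solid K ∧ BoxIneq K ∧
      isoConst K ^ 2 ≤ ((n : ℝ) + 1) / (8 * ((n : ℝ) + 2)) ∧ isoConst K < isoConst S) ∧
    (∀ (p q : ℕ) (a b c : ℝ) (S : Set (Fin (p + q) → ℝ)), 0 < p → 0 < q → 1 ≤ a → 1 ≤ b → 1 ≤ c →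
      IsSimplex S →
      IsConvexBody (MixedBall p q a b c) ∧
      isoConst (MixedBall p q a b c) ^ 2
        ≤ (((p + q : ℕ) : ℝ) + 1) / (8 * (((p + q : ℕ) : ℝ) + 2)) ∧
      isoConst (MixedBall p q a b c) < isoConst S) := by
  refine ⟨?_, ?_, ?_, ?_⟩
  · intro p q K₁ K₂ hp hq c₁ s₁ b₁ c₂ s₂ b₂
    refine ⟨fun u₁ u₂ hu₁ hu₂ => ⟨?_, fun A₁ A₂ hA₁ hA₂ => ?_⟩, fun h A hh hA => ?_,
      props_PBox hp hq c₁ s₁ b₁ c₂ s₂ b₂⟩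
    · exact ⟨isConvexBody_OrlSum c₁ s₁ c₂ s₂ hu₁ hu₂, solid_OrlSum c₁ s₁ c₂ s₂ hu₁ hu₂,
        boxIneq_OrlSum hp hq c₁ s₁ b₁ c₂ s₂ b₂ hu₁ hu₂⟩
    · exact ⟨isConvexBody_TSum c₁ s₁ c₂ s₂ hu₁ hu₂ hA₁ hA₂, solid_TSum c₁ s₁ c₂ s₂ hu₁ hu₂,
        boxIneq_TSum hp hq c₁ s₁ b₁ c₂ s₂ b₂ hu₁ hu₂ hA₁ hA₂⟩
    · rw [HSum_eq_TSum hh]
      have y₁ := isYoung_of_profile hh
      have y₂ := isYoung_abs_div hh.pos
      exact ⟨isConvexBody_TSum c₁ s₁ c₂ s₂ y₁ y₂ hA hh.pos, solid_TSum c₁ s₁ c₂ s₂ y₁ y₂,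
        boxIneq_TSum hp hq c₁ s₁ b₁ c₂ s₂ b₂ y₁ y₂ hA hh.pos⟩
  · intro n K S hn hS hK sK hB
    exact concl_of_boxIneq n hn hS hK sK hB
  · intro n K S hn hS h
    obtain ⟨_, hK, sK, hB⟩ := h.props
    exact ⟨hK, sK, hB, concl_of_boxIneq n hn hS hK sK hB⟩
  · intro p q a b c S hp hq ha hb hc hS
    obtain ⟨_, hK, sK, hB⟩ := (iterT_MixedBall hp hq ha hb hc).props
    exact ⟨hK, concl_of_boxIneq (p + q) (by omega) hS hK sK hB⟩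

end Vale.Agent.Results.P254.OrliczSums
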